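import Vale.Agent.P181.Pol

/-! The commutative algebra of polarization operators from source points to sink points. -/

namespace Vale.Agent.P181

open MvPolynomial

theorem exists_algHom_of_comm {σ A : Type*} [Ring A] [Algebra ℂ A] (f : σ → A)
    (hf : ∀ s t, f s * f t = f t * f s) :
    ∃ φ : MvPolynomial σ ℂ →ₐ[ℂ] A, ∀ s, φ (X s) = f s := by
  have hc : IsMulCommutative (Algebra.adjoin ℂ (Set.range f)) :=
    Algebra.isMulCommutative_adjoin ℂ (by rintro _ ⟨s, rfl⟩ _ ⟨t, rfl⟩; exact hf s t)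
  let _ : CommRing (Algebra.adjoin ℂ (Set.range f)) :=
    { (inferInstance : Ring (Algebra.adjoin ℂ (Set.range f))) with
      mul_comm := hc.is_comm.comm }
  refine ⟨(Algebra.adjoin ℂ (Set.range f)).val.comp
    (aeval fun s => (⟨f s, Algebra.subset_adjoin ⟨s, rfl⟩⟩ : Algebra.adjoin ℂ (Set.range f))), ?_⟩
  intro s
  simp

section act

variable {U Z ι : Type*} [DecidableEq U] [DecidableEq Z]

/-- Polynomials in vector variables indexed by sinks `U` and sources `Z`. -/
abbrev PP (U Z ι : Type*) := MvPolynomial ((U ⊕ Z) × ι) ℂ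

theorem exists_act : ∃ φ : MvPolynomial (U × Z) ℂ →ₐ[ℂ] Module.End ℂ (PP U Z ι),
    ∀ s, φ (X s) = polE (Sum.inl s.1) (Sum.inr s.2) := by
  apply exists_algHom_of_comm
  intro s t
  apply LinearMap.ext
  intro F
  have := pol_comm (ι := ι) (Sum.inl s.1 : U ⊕ Z) (Sum.inr s.2) (Sum.inl t.1) (Sum.inr t.2) F
  simp only [reduceCtorEq, if_false, sub_zero] at this
  simpa [polE_apply, sub_eq_zero] using this

/-- The action of the commutative operator algebra. -/
noncomputable def act : MvPolynomial (U × Z) ℂ →ₐ[ℂ] Module.End ℂ (PP U Z ι) :=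
  Classical.choose exists_act

theorem act_X (u : U) (z : Z) :
    (act (X (u, z)) : Module.End ℂ (PP U Z ι)) = polE (Sum.inl u) (Sum.inr z) :=
  Classical.choose_spec (exists_act (U := U) (Z := Z) (ι := ι)) (u, z)

theorem act_mul_apply (q r : MvPolynomial (U × Z) ℂ) (F : PP U Z ι) :
    act (q * r) F = act q (act r F) := by
  rw [map_mul, Module.End.mul_apply]

theorem act_C (c : ℂ) (F : PP U Z ι) : act (C c : MvPolynomial (U × Z) ℂ) F = c • F := by
  have : (C c : MvPolynomial (U × Z) ℂ) = algebraMap ℂ _ c := rfl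
  rw [this, AlgHom.commutes]
  simp

theorem act_intertwine (φ : PP U Z ι →ₗ[ℂ] PP U Z ι)
    (ψ : MvPolynomial (U × Z) ℂ →ₐ[ℂ] MvPolynomial (U × Z) ℂ)
    (h : ∀ s G, φ (act (X s) G) = act (ψ (X s)) (φ G)) (q : MvPolynomial (U × Z) ℂ) :
    ∀ G, φ (act q G) = act (ψ q) (φ G) := by
  induction q using MvPolynomial.induction_on with
  | C c =>
    intro G
    have : ψ (C c) = C c := ψ.commutes c
    rw [this, act_C, act_C, map_smul]
  | add p q hp hq => intro G; simp only [map_add, LinearMap.add_apply, hp, hq]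
  | mul_X p s hp => intro G; rw [act_mul_apply, hp, h, map_mul, act_mul_apply]

theorem algHom_derivation {σ : Type*} (φ : MvPolynomial σ ℂ →ₐ[ℂ] MvPolynomial σ ℂ)
    (D D' : Derivation ℂ (MvPolynomial σ ℂ) (MvPolynomial σ ℂ))
    (h : ∀ r, φ (D (X r)) = D' (φ (X r))) (G : MvPolynomial σ ℂ) : φ (D G) = D' (φ G) := by
  induction G using MvPolynomial.induction_on with
  | C c =>
    have : φ (C c) = C c := φ.commutes c
    rw [this, derivation_C, derivation_C, map_zero]
  | add p q hp hq => simp only [map_add, hp, hq]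
  | mul_X p s hp =>
    simp only [Derivation.leibniz, smul_eq_mul, map_add, map_mul, hp, h]

/-- `act q` shifts the degree in the point `p` by `n`. -/
def Shift (ι : Type*) (p : U ⊕ Z) (n : ℤ) (q : MvPolynomial (U × Z) ℂ) : Prop :=
  ∀ (d : ℤ) (F : PP U Z ι), Deg p d F → Deg p (d + n) (act q F)

theorem Shift.apply {p : U ⊕ Z} {n : ℤ} {q : MvPolynomial (U × Z) ℂ} (h : Shift ι p n q)
    {d e : ℤ} {F : PP U Z ι} (hF : Deg p d F) (he : e = d + n) : Deg p e (act q F) :=
  he ▸ h d F hF

theorem Shift.one (p : U ⊕ Z) : Shift ι p 0 1 := by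
  intro d F hF
  simpa using hF

theorem Shift.mul {p : U ⊕ Z} {n m : ℤ} {q r : MvPolynomial (U × Z) ℂ} (hq : Shift ι p n q)
    (hr : Shift ι p m r) : Shift ι p (n + m) (q * r) := by
  intro d F hF
  rw [act_mul_apply]
  exact hq.apply (hr d F hF) (by ring)

theorem Shift.prod {α : Type*} {p : U ⊕ Z} (s : Finset α) {n : α → ℤ}
    {q : α → MvPolynomial (U × Z) ℂ} (h : ∀ a ∈ s, Shift ι p (n a) (q a)) :
    Shift ι p (∑ a ∈ s, n a) (∏ a ∈ s, q a) := by
  classical
  induction s using Finset.induction_on with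
  | empty => simpa using Shift.one p
  | insert a s ha ih =>
    rw [Finset.sum_insert ha, Finset.prod_insert ha]
    exact (h a (Finset.mem_insert_self _ _)).mul (ih fun b hb => h b (Finset.mem_insert_of_mem hb))

theorem Shift.pow {p : U ⊕ Z} {n : ℤ} {q : MvPolynomial (U × Z) ℂ} (h : Shift ι p n q) (k : ℕ) :
    Shift ι p (k * n) (q ^ k) := by
  induction k with
  | zero => simpa using Shift.one p
  | succ k ih =>
    rw [pow_succ]
    convert ih.mul h using 1
    push_cast; ring

theorem shift_X_inl (u' u : U) (z : Z) :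
    Shift ι (Sum.inl u') (if u' = u then 1 else 0) (X (u, z)) := by
  intro d F hF
  rw [act_X, polE_apply]
  simpa using hF.pol (p := Sum.inl u) (q := Sum.inr z)

theorem shift_X_inr (z' : Z) (u : U) (z : Z) :
    Shift ι (Sum.inr z') (if z' = z then -1 else 0) (X (u, z)) := by
  intro d F hF
  rw [act_X, polE_apply]
  have := hF.pol (p := Sum.inl u) (q := Sum.inr z)
  by_cases h : z' = z
  · simpa [h, sub_eq_add_neg] using this
  · simpa [h] using this

theorem Shift.of_eq {p : U ⊕ Z} {n m : ℤ} {q : MvPolynomial (U × Z) ℂ} (h : Shift ι p n q)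
    (e : m = n) : Shift ι p m q := e ▸ h

/-- one sink takes `N` from one source -/
theorem act_X_pow_inj {u : U} {z : Z} {k d N : ℕ} {F : PP U Z ι}
    (hp : Deg (Sum.inl u) k F) (hq : Deg (Sum.inr z) d F) (hN : k + N ≤ d)
    (h : act (X (u, z) ^ N) F = 0) : F = 0 := by
  rw [map_pow, act_X] at h
  exact polE_pow_inj (by simp) hp hq hN h

/-- one sink takes `N` from each source in `S` -/
theorem col_inj (u : U) (N d : ℕ) (S : Finset Z) : ∀ (k : ℕ) (F : PP U Z ι),
    Deg (Sum.inl u) k F → (∀ z ∈ S, Deg (Sum.inr z) d F) → k + N * S.card ≤ d →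
    act (∏ z ∈ S, X (u, z) ^ N) F = 0 → F = 0 := by
  induction S using Finset.induction_on with
  | empty => intro k F _ _ _ h; simpa using h
  | insert z S hz ih =>
    intro k F hu hS hk h
    rw [Finset.prod_insert hz, mul_comm, act_mul_apply] at h
    rw [Finset.card_insert_of_notMem hz] at hk
    have h1 : act (X (u, z) ^ N) F = 0 := by
      refine ih (k + N) _ ?_ ?_ (by nlinarith) h
      · exact ((shift_X_inl u u z).pow N).apply hu (by simp)
      · intro z' hz'
        have hne : z' ≠ z := by rintro rfl; exact hz hz'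
        exact ((shift_X_inr z' u z).pow N).apply (hS z' (Finset.mem_insert_of_mem hz'))
          (by simp [hne])
    exact act_X_pow_inj hu (hS z (Finset.mem_insert_self _ _)) (by nlinarith) h1

/-- each sink in `Y` takes one from the source `z` -/
theorem row_inj (z : Z) (c : ℕ) (Y : Finset U) : ∀ (d : ℕ) (F : PP U Z ι),
    (∀ y ∈ Y, Deg (Sum.inl y) c F) → Deg (Sum.inr z) d F → c + Y.card ≤ d →
    act (∏ y ∈ Y, X (y, z)) F = 0 → F = 0 := by
  induction Y using Finset.induction_on with
  | empty => intro k F _ _ _ h; simpa using h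
  | insert y Y hy ih =>
    intro d F hY hz hd h
    rw [Finset.prod_insert hy, mul_comm, act_mul_apply] at h
    rw [Finset.card_insert_of_notMem hy] at hd
    have h1 : act (X (y, z)) F = 0 := by
      refine ih (d - 1) _ ?_ ?_ (by omega) h
      · intro y' hy'
        have hne : y' ≠ y := by rintro rfl; exact hy hy'
        exact (shift_X_inl y' y z).apply (hY y' (Finset.mem_insert_of_mem hy')) (by simp [hne])
      · exact (shift_X_inr z y z).apply hz (by simp only [if_true]; omega)
    exact act_X_pow_inj (N := 1) (hY y (Finset.mem_insert_self _ _)) hz (by omega)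
      (by rwa [pow_one])

/-- renaming of source points -/
noncomputable def swapZ (τ : Z → Z) : PP U Z ι →ₐ[ℂ] PP U Z ι :=
  rename (Prod.map (Sum.map id τ) id)

theorem swapZ_act (τ : Equiv.Perm Z) (q : MvPolynomial (U × Z) ℂ) (G : PP U Z ι) :
    swapZ τ (act q G) = act (rename (Prod.map id τ) q) (swapZ τ G) := by
  refine act_intertwine (swapZ τ).toLinearMap (rename (Prod.map id τ)) ?_ q G
  rintro ⟨u, z⟩ G
  rw [rename_X, Prod.map_apply, id, act_X, act_X, polE_apply, polE_apply]
  change swapZ τ (pol _ _ G) = pol _ _ (swapZ τ G)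
  apply algHom_derivation
  rintro ⟨p, k⟩
  rcases p with u' | z'
  · simp [swapZ, pol_X]
  · by_cases h : z' = z
    · simp [swapZ, pol_X, h]
    · simp [swapZ, pol_X, h]

theorem swapZ_eq_self (z z' : Z) {G : PP U Z ι} (h : Deg (Sum.inr z) 0 G)
    (h' : Deg (Sum.inr z') 0 G) : swapZ (Equiv.swap z z') G = G := by
  have := hom_congr_vars (f₁ := (swapZ (U := U) (ι := ι) (Equiv.swap z z')).toRingHom)
    (f₂ := RingHom.id _) (p₁ := G) (p₂ := G) (by ext c; simp [swapZ]) ?_ rfl
  · simpa using this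
  · rintro ⟨p, k⟩ hv _
    rcases p with u | w
    · simp [swapZ]
    · have h1 : w ≠ z := by rintro rfl; exact h.not_mem_vars k hv
      have h2 : w ≠ z' := by rintro rfl; exact h'.not_mem_vars k hv
      simp [swapZ, Equiv.swap_apply_of_ne_of_ne h1 h2]

/-- symmetric in the source points in `S` -/
def SymIn (S : Finset Z) (F : PP U Z ι) : Prop :=
  ∀ z ∈ S, ∀ z' ∈ S, swapZ (Equiv.swap z z') F = F

theorem SymIn.act {S : Finset Z} {F : PP U Z ι} (h : SymIn S F) {q : MvPolynomial (U × Z) ℂ}
    (hq : ∀ z ∈ S, ∀ z' ∈ S, rename (Prod.map id (Equiv.swap z z')) q = q) :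
    SymIn S (P181.act q F) := by
  intro z hz z' hz'
  rw [swapZ_act, hq z hz z' hz', h z hz z' hz']

omit [DecidableEq U] in
theorem SymIn.mono {S T : Finset Z} {F : PP U Z ι} (h : SymIn S F) (hT : T ⊆ S) : SymIn T F :=
  fun z hz z' hz' => h z (hT hz) z' (hT hz')

theorem prod_swap {M : Type*} [CommMonoid M] (S : Finset Z) {z z' : Z} (hz : z ∈ S) (hz' : z' ∈ S)
    (f : Z → M) : ∏ w ∈ S, f (Equiv.swap z z' w) = ∏ w ∈ S, f w := by
  refine Finset.prod_equiv (Equiv.swap z z') ?_ (fun _ _ => rfl)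
  intro w
  by_cases h1 : w = z
  · simp [h1, hz, hz']
  · by_cases h2 : w = z'
    · simp [h2, hz, hz']
    · rw [Equiv.swap_apply_of_ne_of_ne h1 h2]

/-- substitution of sinks: `y ↦ x + c y • l` for `y ∈ J`. -/
noncomputable def subP (J : Finset U) (x l : U) (c : U → ℂ) : PP U Z ι →ₐ[ℂ] PP U Z ι :=
  aeval fun r => match r.1 with
    | Sum.inl u => if u ∈ J then X (Sum.inl x, r.2) + c u • X (Sum.inl l, r.2) else X r
    | Sum.inr _ => X r

/-- the corresponding substitution on operators -/
noncomputable def subQ (J : Finset U) (x l : U) (c : U → ℂ) :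
    MvPolynomial (U × Z) ℂ →ₐ[ℂ] MvPolynomial (U × Z) ℂ :=
  aeval fun r => if r.1 ∈ J then X (x, r.2) + c r.1 • X (l, r.2) else X r

theorem subP_act (J : Finset U) (x l : U) (c : U → ℂ) (q : MvPolynomial (U × Z) ℂ)
    (G : PP U Z ι) : subP J x l c (act q G) = act (subQ J x l c q) (subP J x l c G) := by
  refine act_intertwine (subP J x l c).toLinearMap (subQ J x l c) ?_ q G
  rintro ⟨u, z⟩ G
  by_cases hu : u ∈ J
  · have : subQ J x l c (X (u, z) : MvPolynomial (U × Z) ℂ) = X (x, z) + c u • X (l, z) := by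
      simp [subQ, hu]
    rw [this, map_add, map_smul, act_X, act_X, act_X]
    change subP J x l c (pol _ _ G) = (pol (Sum.inl x) (Sum.inr z) +
      c u • pol (Sum.inl l) (Sum.inr z) : Derivation ℂ (PP U Z ι) (PP U Z ι)) (subP J x l c G)
    apply algHom_derivation
    rintro ⟨p, k⟩
    rcases p with u' | z'
    · by_cases hu' : u' ∈ J <;> simp [subP, pol_X, hu']
    · by_cases h : z' = z <;> simp [subP, pol_X, h, hu]
  · have : subQ J x l c (X (u, z) : MvPolynomial (U × Z) ℂ) = X (u, z) := by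
      simp [subQ, hu]
    rw [this, act_X]
    change subP J x l c (pol _ _ G) = pol _ _ (subP J x l c G)
    apply algHom_derivation
    rintro ⟨p, k⟩
    rcases p with u' | z'
    · by_cases hu' : u' ∈ J <;> simp [subP, pol_X, hu']
    · by_cases h : z' = z <;> simp [subP, pol_X, h, hu]

theorem subP_eq_self (J : Finset U) (x l : U) (c : U → ℂ) {G : PP U Z ι}
    (h : ∀ y ∈ J, Deg (Sum.inl y) 0 G) : subP J x l c G = G := by
  have := hom_congr_vars (f₁ := (subP (Z := Z) (ι := ι) J x l c).toRingHom)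
    (f₂ := RingHom.id _) (p₁ := G) (p₂ := G) (by ext c; simp [subP]) ?_ rfl
  · simpa using this
  · rintro ⟨p, k⟩ hv _
    rcases p with u | w
    · have h1 : u ∉ J := fun hu => (h u hu).not_mem_vars k hv
      simp [subP, h1]
    · simp [subP]

theorem exists_fresh [Infinite U] (T : Finset U) (F : PP U Z ι) :
    ∃ x, x ∉ T ∧ Deg (Sum.inl x : U ⊕ Z) 0 F := by
  classical
  obtain ⟨x, hx⟩ := Infinite.exists_notMem_finset
    (T ∪ F.vars.biUnion (fun r => match r.1 with | Sum.inl u => {u} | Sum.inr _ => ∅))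
  rw [Finset.mem_union, not_or] at hx
  refine ⟨x, hx.1, deg_zero_of_not_mem_vars fun k hk => hx.2 ?_⟩
  exact Finset.mem_biUnion.2 ⟨_, hk, by simp⟩

end act

end Vale.Agent.P181
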