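import Mathlib

/-! Functoriality of Mathlib's symmetric powers. -/

namespace Vale.Agent.P181

/-- The additive map `Sym^n V → W` induced by a symmetric multilinear map `f : V^n → W`. -/
noncomputable def symLiftAdd {n : ℕ} {V W : Type*} [AddCommGroup V] [Module ℂ V] [AddCommGroup W]
    [Module ℂ W] (f : MultilinearMap ℂ (fun _ : Fin n => V) W)
    (hf : ∀ (e : Equiv.Perm (Fin n)) (v : Fin n → V), f (fun i => v (e i)) = f v) :
    SymmetricPower ℂ (Fin n) V →+ W :=
  AddCon.lift (addConGen (SymmetricPower.Rel ℂ (Fin n) V))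
    (PiTensorProduct.liftAux f) (AddCon.addConGen_le.2 (by
      rintro _ _ ⟨e, v⟩
      simpa [AddCon.ker_rel, PiTensorProduct.liftAux_tprod] using (hf e v).symm))

/-- The same map as a linear map. -/
noncomputable def symLift {n : ℕ} {V W : Type*} [AddCommGroup V] [Module ℂ V] [AddCommGroup W]
    [Module ℂ W] (f : MultilinearMap ℂ (fun _ : Fin n => V) W)
    (hf : ∀ (e : Equiv.Perm (Fin n)) (v : Fin n → V), f (fun i => v (e i)) = f v) :
    SymmetricPower ℂ (Fin n) V →ₗ[ℂ] W where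
  toFun := symLiftAdd f hf
  map_add' := (symLiftAdd f hf).map_add
  map_smul' c x := AddCon.induction_on x fun y => (PiTensorProduct.lift f).map_smul c y

/-- The linear map `Sym^n g : Sym^n V → Sym^n W`, `v_1 ⋯ v_n ↦ g v_1 ⋯ g v_n`. -/
noncomputable def symMap (n : ℕ) {V W : Type*} [AddCommGroup V] [Module ℂ V] [AddCommGroup W]
    [Module ℂ W] (g : V →ₗ[ℂ] W) :
    SymmetricPower ℂ (Fin n) V →ₗ[ℂ] SymmetricPower ℂ (Fin n) W :=
  symLift ((SymmetricPower.tprod ℂ).compLinearMap fun _ => g)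
    (fun e v => SymmetricPower.tprod_equiv e fun i => g (v i))

/-- The element `∏_i (∏_j v i j)` of `Sym^a (Sym^b V)`. -/
noncomputable def dprod {a b : ℕ} {V : Type*} [AddCommGroup V] [Module ℂ V]
    (v : Fin a → Fin b → V) : SymmetricPower ℂ (Fin a) (SymmetricPower ℂ (Fin b) V) :=
  SymmetricPower.tprod ℂ fun i => SymmetricPower.tprod ℂ fun j => v i j

/-- The action of `g ∈ GL(V)` on `Sym^a (Sym^b V)`. -/
noncomputable def glAct (a b : ℕ) {V : Type*} [AddCommGroup V] [Module ℂ V] (g : V ≃ₗ[ℂ] V)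
    (x : SymmetricPower ℂ (Fin a) (SymmetricPower ℂ (Fin b) V)) :
    SymmetricPower ℂ (Fin a) (SymmetricPower ℂ (Fin b) V) :=
  symMap a (symMap b (g : V →ₗ[ℂ] V)) x

theorem symLift_tprod {n : ℕ} {V W : Type*} [AddCommGroup V] [Module ℂ V] [AddCommGroup W]
    [Module ℂ W] (f : MultilinearMap ℂ (fun _ : Fin n => V) W)
    (hf : ∀ (e : Equiv.Perm (Fin n)) (v : Fin n → V), f (fun i => v (e i)) = f v)
    (v : Fin n → V) : symLift f hf (SymmetricPower.tprod ℂ v) = f v :=
  PiTensorProduct.lift.tprod v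

theorem symMap_tprod {n : ℕ} {V W : Type*} [AddCommGroup V] [Module ℂ V] [AddCommGroup W]
    [Module ℂ W] (g : V →ₗ[ℂ] W) (v : Fin n → V) :
    symMap n g (SymmetricPower.tprod ℂ v) = SymmetricPower.tprod ℂ fun i => g (v i) :=
  symLift_tprod _ _ v

end Vale.Agent.P181
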