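import Vale.Agent.P181.Step
import Vale.Agent.P181.Defs

/-! From polarization operators to the canonical map between iterated symmetric powers. -/

namespace Vale.Agent.P181

open MvPolynomial

theorem leibniz_prod' {A α : Type*} [CommRing A] [Algebra ℂ A] [DecidableEq α]
    (D : Derivation ℂ A A) (s : Finset α) (f : α → A) :
    D (∏ i ∈ s, f i) = ∑ i ∈ s, (∏ j ∈ s.erase i, f j) • D (f i) := by
  induction s using Finset.induction_on with
  | empty => simp
  | insert a s ha ih =>
    rw [Finset.prod_insert ha, Derivation.leibniz, ih, Finset.sum_insert ha, Finset.erase_insert ha,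
      add_comm, Finset.smul_sum]
    congr 1
    refine Finset.sum_congr rfl fun i hi => ?_
    have hne : a ≠ i := by rintro rfl; exact ha hi
    rw [Finset.erase_insert_of_ne hne, Finset.prod_insert (by simp [ha]), mul_smul]

theorem sum_perm_const {M : Type*} [AddCommGroup M] [Module ℂ M] {n : ℕ}
    {f : Equiv.Perm (Fin n) → M} {x : M} (h : ∀ τ, f τ = x) :
    ∑ τ, f τ = (n.factorial : ℂ) • x := by
  simp [h, Fintype.card_perm, Nat.cast_smul_eq_nsmul]

theorem span_tprod {W γ : Type*} [AddCommGroup W] [Module ℂ W] (n : ℕ) (g : γ → W)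
    (hg : Submodule.span ℂ (Set.range g) = ⊤) :
    Submodule.span ℂ (Set.range fun κ : Fin n → γ =>
      (SymmetricPower.tprod ℂ fun j => g (κ j) : SymmetricPower ℂ (Fin n) W)) = ⊤ := by
  have h := PiTensorProduct.submodule_span_eq_top (R := ℂ) (M := fun _ : Fin n => W)
    (γ := fun _ => γ) (g := fun _ j => g j) (fun _ => hg)
  have h2 := congrArg (Submodule.map (SymmetricPower.mk ℂ (Fin n) W)) h
  rw [Submodule.map_top, SymmetricPower.range_mk, Submodule.map_span, ← Set.range_comp] at h2
  exact h2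

theorem ext_dbl {V W : Type*} [AddCommGroup V] [Module ℂ V] [AddCommGroup W] [Module ℂ W]
    {a b : ℕ} {f g : SymmetricPower ℂ (Fin a) (SymmetricPower ℂ (Fin b) V) →ₗ[ℂ] W}
    (h : ∀ v : Fin a → Fin b → V,
      f (SymmetricPower.tprod ℂ fun i => SymmetricPower.tprod ℂ (v i)) =
      g (SymmetricPower.tprod ℂ fun i => SymmetricPower.tprod ℂ (v i))) : f = g := by
  refine LinearMap.ext_on_range (span_tprod a _ (SymmetricPower.span_tprod_eq_top ℂ (Fin b) V)) h

section

variable {V ι P : Type*} [AddCommGroup V] [Module ℂ V] (e : Module.Basis ι ℂ V) [DecidableEq P]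

/-- a vector as a linear form in the vector variable `p` -/
noncomputable def lin (p : P) : V →ₗ[ℂ] MvPolynomial (P × ι) ℂ := e.constr ℂ fun k => X (p, k)

omit [DecidableEq P] in
theorem lin_basis (p : P) (k : ι) : lin e p (e k) = X (p, k) := by simp [lin]

theorem pol_lin (p q r : P) (v : V) : pol p q (lin e r v) = if r = q then lin e p v else 0 := by
  have : (pol p q : Derivation ℂ (MvPolynomial (P × ι) ℂ) _).toLinearMap ∘ₗ lin e r =
      if r = q then lin e p else 0 := by
    refine e.ext fun k => ?_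
    by_cases h : r = q <;> simp [lin_basis, pol_X, h]
  have := LinearMap.congr_fun this v
  by_cases h : r = q <;> simpa [h] using this

theorem deg_lin (p r : P) (v : V) : Deg p (if r = p then 1 else 0) (lin e r v) := by
  unfold Deg
  rw [pol_lin]
  by_cases h : r = p <;> simp [h]

/-- `Sym^n V` as forms of degree `n` in the vector variable `p` -/
noncomputable def emb (n : ℕ) (p : P) : SymmetricPower ℂ (Fin n) V →ₗ[ℂ] MvPolynomial (P × ι) ℂ :=
  symLift ((MultilinearMap.mkPiAlgebra ℂ (Fin n) (MvPolynomial (P × ι) ℂ)).compLinearMap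
    fun _ => lin e p) (fun σ v => by
      simpa using Equiv.prod_comp σ fun j => lin e p (v j))

omit [DecidableEq P] in
theorem emb_tprod {n : ℕ} (p : P) (v : Fin n → V) :
    emb e n p (SymmetricPower.tprod ℂ v) = ∏ j, lin e p (v j) := by
  rw [emb, symLift_tprod]; simp

/-- product of the embeddings at the points `pts` -/
noncomputable def prodEmb {a : ℕ} (b : ℕ) (pts : Fin a → P) :
    MultilinearMap ℂ (fun _ : Fin a => SymmetricPower ℂ (Fin b) V) (MvPolynomial (P × ι) ℂ) :=
  (MultilinearMap.mkPiAlgebra ℂ (Fin a) (MvPolynomial (P × ι) ℂ)).compLinearMap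
    fun i => emb e b (pts i)

/-- symmetrized embedding of the iterated symmetric power -/
noncomputable def Phi {a : ℕ} (b : ℕ) (pts : Fin a → P) :
    SymmetricPower ℂ (Fin a) (SymmetricPower ℂ (Fin b) V) →ₗ[ℂ] MvPolynomial (P × ι) ℂ :=
  symLift (∑ τ : Equiv.Perm (Fin a), (prodEmb e b pts).domDomCongr τ) (fun σ f => by
    simp only [sum_apply, MultilinearMap.domDomCongr_apply]
    exact Fintype.sum_equiv (Equiv.mulLeft σ) _ _ fun τ => rfl)

omit [DecidableEq P] in
theorem Phi_tprod {a : ℕ} (b : ℕ) (pts : Fin a → P) (f : Fin a → SymmetricPower ℂ (Fin b) V) :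
    Phi e b pts (SymmetricPower.tprod ℂ f) =
      ∑ τ : Equiv.Perm (Fin a), ∏ i, emb e b (pts i) (f (τ i)) := by
  rw [Phi, symLift_tprod]
  simp [prodEmb]

open Classical in
/-- the monomial in `Sym^b V` with prescribed exponents -/
noncomputable def mu (b : ℕ) (c : ι → ℕ) : SymmetricPower ℂ (Fin b) V :=
  if h : ∃ κ : Fin b → ι, ∀ k, (Finset.univ.filter fun j => κ j = k).card = c k then
    SymmetricPower.tprod ℂ fun j => e (h.choose j) else 0

open Classical in
theorem mu_card {b : ℕ} (κ : Fin b → ι) :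
    mu e b (fun k => (Finset.univ.filter fun j => κ j = k).card) =
      SymmetricPower.tprod ℂ fun j => e (κ j) := by
  have h : ∃ κ' : Fin b → ι, ∀ k, (Finset.univ.filter fun j => κ' j = k).card =
    (Finset.univ.filter fun j => κ j = k).card := ⟨κ, fun _ => rfl⟩
  rw [mu, dif_pos h]
  have hs := h.choose_spec
  set κ' := h.choose
  have he : ∀ k, Nonempty ({j // κ' j = k} ≃ {j // κ j = k}) := by
    intro k
    apply Fintype.card_eq.1
    rw [Fintype.card_subtype, Fintype.card_subtype]
    exact hs k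
  let σ : Equiv.Perm (Fin b) := Equiv.ofFiberEquiv fun k => (he k).some
  have hσ : ∀ j, κ (σ j) = κ' j := Equiv.ofFiberEquiv_map _
  rw [← SymmetricPower.tprod_equiv σ fun j => e (κ j)]
  simp_rw [hσ]

/-- left inverse on monomials -/
noncomputable def Lam {a : ℕ} (b : ℕ) (pts : Fin a → P) :
    MvPolynomial (P × ι) ℂ →ₗ[ℂ] SymmetricPower ℂ (Fin a) (SymmetricPower ℂ (Fin b) V) :=
  (basisMonomials (P × ι) ℂ).constr ℂ fun m =>
    SymmetricPower.tprod ℂ fun i => mu e b fun k => m (pts i, k)

omit [DecidableEq P] in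
theorem Lam_prod {a : ℕ} (b : ℕ) {pts : Fin a → P} (hp : Function.Injective pts)
    (f : Fin a → SymmetricPower ℂ (Fin b) V) :
    Lam e b pts (∏ i, emb e b (pts i) (f i)) = SymmetricPower.tprod ℂ f := by
  classical
  have : (Lam e b pts).compMultilinearMap (prodEmb e b pts) = SymmetricPower.tprod ℂ := by
    refine MultilinearMap.ext_of_span_eq_top (γ := fun _ => Fin b → ι)
      (g := fun _ κ => SymmetricPower.tprod ℂ fun j => e (κ j))
      (fun _ => span_tprod b e e.span_eq) fun κ => ?_
    simp only [LinearMap.compMultilinearMap_apply, prodEmb, MultilinearMap.compLinearMap_apply,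
      MultilinearMap.mkPiAlgebra_apply, emb_tprod, lin_basis]
    have h1 : (∏ i, ∏ j, X (pts i, κ i j) : MvPolynomial (P × ι) ℂ) =
        basisMonomials (P × ι) ℂ (∑ i, ∑ j, Finsupp.single (pts i, κ i j) 1) := by
      rw [coe_basisMonomials]
      simp only [monomial_sum_one]
      rfl
    rw [h1, Lam, Module.Basis.constr_basis]
    congr 1
    funext i
    rw [← mu_card]
    congr 1
    funext k
    rw [Finsupp.finsetSum_apply, Finset.sum_eq_single i]
    · rw [Finsupp.finsetSum_apply, Finset.card_filter]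
      refine Finset.sum_congr rfl fun j _ => ?_
      simp [Finsupp.single_apply]
    · intro i' _ hi'
      rw [Finsupp.finsetSum_apply]
      refine Finset.sum_eq_zero fun j _ => ?_
      simp [hp.ne hi']
    · simp
  have := DFunLike.congr_fun this f
  simpa [prodEmb] using this

omit [DecidableEq P] in
theorem Lam_Phi {a : ℕ} (b : ℕ) {pts : Fin a → P} (hp : Function.Injective pts)
    (x : SymmetricPower ℂ (Fin a) (SymmetricPower ℂ (Fin b) V)) :
    Lam e b pts (Phi e b pts x) = (a.factorial : ℂ) • x := by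
  have : Lam e b pts ∘ₗ Phi e b pts = (a.factorial : ℂ) • LinearMap.id := by
    refine LinearMap.ext_on_range (SymmetricPower.span_tprod_eq_top ℂ (Fin a) _) fun f => ?_
    simp only [LinearMap.comp_apply, Phi_tprod, map_sum, Lam_prod e b hp,
      SymmetricPower.tprod_equiv, Finset.sum_const, Finset.card_univ, Fintype.card_perm,
      Fintype.card_fin, LinearMap.smul_apply, LinearMap.id_apply, Nat.cast_smul_eq_nsmul]
  exact LinearMap.congr_fun this x

omit [DecidableEq P] in
theorem Phi_eq_zero {a : ℕ} (b : ℕ) {pts : Fin a → P} (hp : Function.Injective pts)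
    {x : SymmetricPower ℂ (Fin a) (SymmetricPower ℂ (Fin b) V)} (h : Phi e b pts x = 0) :
    x = 0 := by
  have := Lam_Phi e b hp x
  rw [h, map_zero, eq_comm, smul_eq_zero] at this
  exact this.resolve_left (Nat.cast_ne_zero.2 a.factorial_ne_zero)

theorem deg_Phi {a : ℕ} (b : ℕ) (pts : Fin a → P) (p : P) (d : ℤ)
    (hd : d = ∑ i, if pts i = p then (b : ℤ) else 0)
    (x : SymmetricPower ℂ (Fin a) (SymmetricPower ℂ (Fin b) V)) : Deg p d (Phi e b pts x) := by
  have : polE p p ∘ₗ Phi e b pts = (d : ℂ) • Phi e b pts := by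
    refine ext_dbl fun v => ?_
    change Deg p d _
    rw [Phi_tprod]
    refine Deg.sum _ fun τ _ => ?_
    rw [hd]
    refine Deg.prod _ fun i _ => ?_
    rw [emb_tprod]
    convert Deg.prod (p := p) Finset.univ (fun j _ => deg_lin e p (pts i) (v (τ i) j)) using 1
    by_cases h : pts i = p <;> simp [h]
  exact LinearMap.congr_fun this x

end

section

variable {V ι U Z : Type*} [AddCommGroup V] [Module ℂ V] (e : Module.Basis ι ℂ V)
  [DecidableEq U] [DecidableEq Z]

omit [DecidableEq U] [DecidableEq Z] in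
theorem swapZ_lin (τ : Z → Z) (z : Z) (v : V) :
    swapZ τ (lin e (Sum.inr z : U ⊕ Z) v) = lin e (Sum.inr (τ z)) v := by
  have : (swapZ (U := U) (ι := ι) τ).toLinearMap ∘ₗ lin e (Sum.inr z : U ⊕ Z) =
      lin e (Sum.inr (τ z)) := by
    refine e.ext fun k => ?_
    simp [lin_basis, swapZ]
  exact LinearMap.congr_fun this v

theorem pol_prod_lin {α : Type*} [DecidableEq α] (u : U) (z : Z) (s : Finset α) (v : α → V) :
    pol (Sum.inl u : U ⊕ Z) (Sum.inr z) (∏ j ∈ s, lin e (Sum.inr z : U ⊕ Z) (v j)) =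
      ∑ p ∈ s, lin e (Sum.inl u) (v p) * ∏ j ∈ s.erase p, lin e (Sum.inr z : U ⊕ Z) (v j) := by
  rw [leibniz_prod']
  refine Finset.sum_congr rfl fun p _ => ?_
  rw [pol_lin, if_pos rfl, smul_eq_mul, mul_comm]

theorem act_row (z : Z) (b : ℕ) : ∀ (y : Fin b → U) (v : Fin b → V) (G : PP U Z ι),
    (∀ u, pol (Sum.inl u : U ⊕ Z) (Sum.inr z) G = 0) →
    act (∏ m, X (y m, z) : MvPolynomial (U × Z) ℂ) ((∏ j, lin e (Sum.inr z) (v j)) * G) =
      (∑ σ : Equiv.Perm (Fin b), ∏ m, lin e (Sum.inl (y m)) (v (σ m))) * G := by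
  induction b with
  | zero => intro y v G _; simp
  | succ b ih =>
    intro y v G hG
    rw [Fin.prod_univ_succ, mul_comm, act_mul_apply, act_X, polE_apply, Derivation.leibniz, hG,
      smul_zero, zero_add, pol_prod_lin, smul_eq_mul, Finset.mul_sum, map_sum,
      ← Equiv.sum_comp Equiv.Perm.decomposeFin.symm, Fintype.sum_prod_type, Finset.sum_mul]
    refine Finset.sum_congr rfl fun p _ => ?_
    have h1 : ∏ j ∈ Finset.univ.erase p, lin e (Sum.inr z : U ⊕ Z) (v j) =
        ∏ j : Fin b, lin e (Sum.inr z : U ⊕ Z) (v (Equiv.swap 0 p j.succ)) := by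
      symm
      refine Finset.prod_bij (fun j _ => Equiv.swap 0 p j.succ) ?_ ?_ ?_ (fun _ _ => rfl)
      · intro j _
        simp only [Finset.mem_erase, Finset.mem_univ, and_true]
        intro h
        have : Equiv.swap 0 p j.succ = Equiv.swap 0 p 0 := by rw [h, Equiv.swap_apply_left]
        exact Fin.succ_ne_zero j ((Equiv.swap 0 p).injective this)
      · intro j _ j' _ h
        exact Fin.succ_injective _ ((Equiv.swap 0 p).injective h)
      · intro j hj
        have hj0 : Equiv.swap 0 p j ≠ 0 := by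
          intro h
          have : Equiv.swap 0 p j = Equiv.swap 0 p p := by rw [h, Equiv.swap_apply_right]
          exact (Finset.mem_erase.1 hj).1 ((Equiv.swap 0 p).injective this)
        obtain ⟨j', hj'⟩ := Fin.exists_succ_eq.2 hj0
        exact ⟨j', Finset.mem_univ _, by rw [hj', Equiv.swap_apply_self]⟩
    have h2 := ih (fun m => y m.succ) (fun j => v (Equiv.swap 0 p j.succ))
      (lin e (Sum.inl (y 0)) (v p) * G) (by
        intro u
        rw [Derivation.leibniz, hG, pol_lin]
        simp)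
    rw [h1, show G * (lin e (Sum.inl (y 0) : U ⊕ Z) (v p) *
        ∏ j : Fin b, lin e (Sum.inr z : U ⊕ Z) (v (Equiv.swap 0 p j.succ))) =
      (∏ j : Fin b, lin e (Sum.inr z : U ⊕ Z) (v (Equiv.swap 0 p j.succ))) *
        (lin e (Sum.inl (y 0)) (v p) * G) by ring, h2, ← mul_assoc]
    congr 1
    rw [Finset.sum_mul]
    refine Finset.sum_congr rfl fun σ _ => ?_
    rw [Fin.prod_univ_succ, mul_comm]
    simp

theorem act_rows {b : ℕ} (y : Fin b → U) (v : Z → Fin b → V) (S : Finset Z) : ∀ G : PP U Z ι,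
    (∀ z ∈ S, ∀ u, pol (Sum.inl u : U ⊕ Z) (Sum.inr z) G = 0) →
    act (∏ z ∈ S, ∏ m, X (y m, z) : MvPolynomial (U × Z) ℂ)
      ((∏ z ∈ S, ∏ j, lin e (Sum.inr z) (v z j)) * G) =
      (∏ z ∈ S, ∑ σ : Equiv.Perm (Fin b), ∏ m, lin e (Sum.inl (y m)) (v z (σ m))) * G := by
  induction S using Finset.induction_on with
  | empty => intro G _; simp
  | insert z S hz ih =>
    intro G hG
    rw [Finset.prod_insert hz, Finset.prod_insert hz, Finset.prod_insert hz, mul_comm,
      act_mul_apply, mul_assoc, act_row e z b y (v z)]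
    · rw [mul_left_comm, ih, mul_left_comm, mul_assoc]
      intro w hw u
      rw [Derivation.leibniz, hG w (Finset.mem_insert_of_mem hw), map_sum]
      simp [leibniz_prod', pol_lin]
    · intro u
      rw [Derivation.leibniz, hG z (Finset.mem_insert_self _ _), leibniz_prod',
        Finset.sum_eq_zero]
      · simp
      · intro w hw
        have : w ≠ z := by rintro rfl; exact hz hw
        simp [leibniz_prod', pol_lin, this]

end

theorem foulkes_howe_of_good {a b : ℕ} {V ι : Type*} [AddCommGroup V] [Module ℂ V]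
    (e : Module.Basis ι ℂ V) (hgood : Good ℕ (Fin a) ι a b) :
    ∃ Ψ : SymmetricPower ℂ (Fin a) (SymmetricPower ℂ (Fin b) V) →ₗ[ℂ]
        SymmetricPower ℂ (Fin b) (SymmetricPower ℂ (Fin a) V),
      (∀ v : Fin a → Fin b → V,
        Ψ (SymmetricPower.tprod ℂ fun i => SymmetricPower.tprod ℂ fun j => v i j) =
          ∑ σ : Fin a → Equiv.Perm (Fin b),
            SymmetricPower.tprod ℂ fun j => SymmetricPower.tprod ℂ fun i => v i (σ i j)) ∧
      Function.Injective Ψ ∧
      ∀ g : V →ₗ[ℂ] V, Ψ ∘ₗ symMap a (symMap b g) = symMap b (symMap a g) ∘ₗ Ψ := by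
  let zp : Fin a → ℕ ⊕ Fin a := Sum.inr
  let yp : Fin b → ℕ ⊕ Fin a := fun m => Sum.inl m.val
  have hzp : Function.Injective zp := Sum.inr_injective
  have hyp : Function.Injective yp := Sum.inl_injective.comp Fin.val_injective
  let Y : Finset ℕ := Finset.univ.map (Fin.valEmbedding (n := b))
  let T : Module.End ℂ (PP ℕ (Fin a) ι) := act (Th Y Finset.univ)
  have hT : ∀ v : Fin a → Fin b → V,
      T (Phi e b zp (SymmetricPower.tprod ℂ fun i => SymmetricPower.tprod ℂ (v i))) =
        (a.factorial : ℂ) • ∑ σ : Fin a → Equiv.Perm (Fin b),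
          ∏ m, emb e a (yp m) (SymmetricPower.tprod ℂ fun i => v i (σ i m)) := by
    intro v
    rw [Phi_tprod, map_sum]
    refine sum_perm_const fun τ => ?_
    have h1 := act_rows e (fun m : Fin b => m.val) (fun z => v (τ z)) Finset.univ 1 (by simp)
    rw [mul_one, mul_one] at h1
    simp only [emb_tprod]
    have h2 : Th Y (Finset.univ : Finset (Fin a)) = ∏ z : Fin a, ∏ m : Fin b, X (m.val, z) := by
      rw [Th, Finset.prod_map, Finset.prod_comm]; rfl
    change act (Th Y Finset.univ) _ = _
    rw [h2, h1, Equiv.prod_comp τ fun z => ∑ σ : Equiv.Perm (Fin b),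
      ∏ m : Fin b, lin e (Sum.inl m.val : ℕ ⊕ Fin a) (v z (σ m)), Finset.prod_univ_sum]
    simp only [Fintype.piFinset_univ]
    exact Finset.sum_congr rfl fun σ _ => Finset.prod_comm
  have ha : (a.factorial : ℂ) ≠ 0 := Nat.cast_ne_zero.2 a.factorial_ne_zero
  have hb : (b.factorial : ℂ) ≠ 0 := Nat.cast_ne_zero.2 b.factorial_ne_zero
  let Ψ := (a.factorial : ℂ)⁻¹ • (Lam e a yp ∘ₗ T ∘ₗ Phi e b zp)
  have hΨ : ∀ v : Fin a → Fin b → V,
      Ψ (SymmetricPower.tprod ℂ fun i => SymmetricPower.tprod ℂ fun j => v i j) =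
        ∑ σ : Fin a → Equiv.Perm (Fin b),
          SymmetricPower.tprod ℂ fun j => SymmetricPower.tprod ℂ fun i => v i (σ i j) := by
    intro v
    simp only [Ψ, LinearMap.smul_apply, LinearMap.comp_apply]
    rw [hT, map_smul, smul_smul, inv_mul_cancel₀ ha, one_smul, map_sum]
    exact Finset.sum_congr rfl fun σ _ => Lam_prod e a hyp _
  refine ⟨Ψ, hΨ, ?_, ?_⟩
  · have key : (a.factorial : ℂ) • (Phi e a yp ∘ₗ Ψ) = (b.factorial : ℂ) • (T ∘ₗ Phi e b zp) := by
      refine ext_dbl fun v => ?_
      simp only [LinearMap.smul_apply, LinearMap.comp_apply]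
      rw [hΨ, hT, smul_comm, map_sum]
      congr 1
      simp only [Phi_tprod]
      rw [Finset.sum_comm]
      refine sum_perm_const fun π => ?_
      exact Fintype.sum_equiv (Equiv.piCongrRight fun _ => Equiv.mulRight π) _ _ fun σ => rfl
    rw [injective_iff_map_eq_zero]
    intro x hx
    have h1 := LinearMap.congr_fun key x
    simp only [LinearMap.smul_apply, LinearMap.comp_apply, hx, map_zero, smul_zero] at h1
    have h2 : T (Phi e b zp x) = 0 := (smul_eq_zero.1 h1.symm).resolve_left hb
    refine Phi_eq_zero e b hzp (hgood Finset.univ Y (by simp) (by simp [Y]) _ ?_ ?_ ?_ h2)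
    · intro z _
      exact deg_Phi e b zp _ _ (by simp [zp]) x
    · intro y _
      exact deg_Phi e b zp _ _ (by simp [zp]) x
    · intro z _ z' _
      have : (swapZ (U := ℕ) (ι := ι) (Equiv.swap z z')).toLinearMap ∘ₗ Phi e b zp =
          Phi e b zp := by
        refine ext_dbl fun v => ?_
        change swapZ _ _ = _
        simp only [Phi_tprod, emb_tprod, map_sum, map_prod, zp, swapZ_lin]
        refine Fintype.sum_equiv (Equiv.mulRight (Equiv.swap z z')) _ _ fun τ => ?_
        refine Fintype.prod_equiv (Equiv.swap z z') _ _ fun i => ?_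
        simp
      exact LinearMap.congr_fun this x
  · intro g
    refine ext_dbl fun v => ?_
    simp only [LinearMap.comp_apply, symMap_tprod]
    rw [hΨ (fun i j => g (v i j)), hΨ v, map_sum]
    simp only [symMap_tprod]

end Vale.Agent.P181
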