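import Mathlib

/-! Polarization operators on polynomials in several vector variables, and the sl2 lemma. -/

namespace Vale.Agent.P181

open MvPolynomial

section sl2

variable {M : Type*} [AddCommGroup M] [Module ℂ M]

theorem sl2_comm (E F H : Module.End ℂ M) (hEF : ∀ v, E (F v) - F (E v) = H v)
    (hHE : ∀ v, H (E v) = E (H v) + (2 : ℂ) • E v) (v : M) (μ : ℂ) (hv : H v = μ • v) (n : ℕ) :
    H ((E ^ n) v) = (μ + 2 * n) • (E ^ n) v ∧
    F ((E ^ (n + 1)) v) = (E ^ (n + 1)) (F v) - ((n + 1 : ℂ) * (μ + n)) • (E ^ n) v := by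
  induction n with
  | zero =>
    refine ⟨by simpa using hv, ?_⟩
    have := hEF v
    simp only [zero_add, pow_one, Nat.cast_zero, add_zero, one_mul, pow_zero, Module.End.one_apply]
    rw [← hv, ← this]; abel
  | succ n ih =>
    obtain ⟨ih1, ih2⟩ := ih
    have h1 : H ((E ^ (n + 1)) v) = (μ + 2 * ((n + 1 : ℕ) : ℂ)) • (E ^ (n + 1)) v := by
      rw [pow_succ', Module.End.mul_apply, hHE, ih1, map_smul, ← add_smul]
      congr 1; push_cast; ring
    refine ⟨h1, ?_⟩
    have h2 := hEF ((E ^ (n + 1)) v)
    rw [h1, ih2, map_sub, map_smul] at h2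
    have e1 : (E ^ (n + 1 + 1)) v = E ((E ^ (n + 1)) v) := by
      rw [pow_succ' E (n + 1), Module.End.mul_apply]
    have e2 : (E ^ (n + 1 + 1)) (F v) = E ((E ^ (n + 1)) (F v)) := by
      rw [pow_succ' E (n + 1), Module.End.mul_apply]
    have e3 : E ((E ^ n) v) = (E ^ (n + 1)) v := by
      rw [pow_succ' E n, Module.End.mul_apply]
    rw [e1, e2]
    rw [e3] at h2
    have : F (E ((E ^ (n + 1)) v)) = E ((E ^ (n + 1)) (F v)) - ((n + 1 : ℂ) * (μ + n)) • (E ^ (n + 1)) v
        - (μ + 2 * ((n + 1 : ℕ) : ℂ)) • (E ^ (n + 1)) v := by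
      rw [← h2]; abel
    rw [this, sub_sub, ← add_smul]
    congr 2; push_cast; ring

/-- If `v` has weight `-m`, is killed by a power of `F`, and by `E ^ N` with `N ≤ m`, then `v = 0`. -/
theorem sl2_inj (E F H : Module.End ℂ M) (hEF : ∀ v, E (F v) - F (E v) = H v)
    (hHE : ∀ v, H (E v) = E (H v) + (2 : ℂ) • E v)
    (hHF : ∀ v, H (F v) = F (H v) - (2 : ℂ) • F v) (k : ℕ) :
    ∀ (v : M) (m N : ℕ), H v = (-(m : ℂ)) • v → (F ^ k) v = 0 → N ≤ m → (E ^ N) v = 0 → v = 0 := by
  induction k with
  | zero => intro v m N _ h _ _; simpa using h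
  | succ k ih =>
    intro v m N hv hF hN hE
    have hFv : F v = 0 := by
      refine ih (F v) (m + 2) (N + 1) ?_ ?_ (by omega) ?_
      · rw [hHF, hv, map_smul, ← sub_smul]; congr 1; push_cast; ring
      · rw [← Module.End.mul_apply, ← pow_succ]; exact hF
      · have h := (sl2_comm E F H hEF hHE v _ hv N).2
        have h0 : (E ^ (N + 1)) v = 0 := by rw [pow_succ', Module.End.mul_apply, hE, map_zero]
        rw [h0, hE, map_zero, smul_zero, sub_zero] at h
        exact h.symm
    clear ih hF
    induction N with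
    | zero => simpa using hE
    | succ n ihn =>
      apply ihn (by omega)
      have h := (sl2_comm E F H hEF hHE v _ hv n).2
      rw [hE, hFv, map_zero, map_zero, zero_sub, eq_comm, neg_eq_zero, smul_eq_zero] at h
      rcases h with h | h
      · exfalso
        rcases mul_eq_zero.1 h with h | h
        · exact Nat.cast_add_one_ne_zero n h
        · have : (n : ℂ) = m := by linear_combination h
          have : n = m := by exact_mod_cast this
          omega
      · exact h

end sl2

section pol

variable {P ι : Type*} [DecidableEq P]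

/-- The polarization operator `∑ k, X (p,k) ∂ / ∂ X (q,k)`. -/
noncomputable def pol (p q : P) : Derivation ℂ (MvPolynomial (P × ι) ℂ) (MvPolynomial (P × ι) ℂ) :=
  mkDerivation ℂ (fun r : P × ι => if r.1 = q then X (p, r.2) else 0)

theorem pol_X (p q : P) (r : P × ι) :
    pol p q (X r : MvPolynomial (P × ι) ℂ) = if r.1 = q then X (p, r.2) else 0 := by
  simp [pol, mkDerivation_X]

theorem pol_comm (p q r s : P) (F : MvPolynomial (P × ι) ℂ) :
    pol p q (pol r s F) - pol r s (pol p q F) =
      (if q = r then pol p s F else 0) - (if s = p then pol r q F else 0) := by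
  have key : (⁅(pol p q : Derivation ℂ (MvPolynomial (P × ι) ℂ) _), pol r s⁆ :
      Derivation ℂ (MvPolynomial (P × ι) ℂ) _) =
      (if q = r then pol p s else 0) - (if s = p then pol r q else 0) := by
    apply derivation_ext
    rintro ⟨t, k⟩
    rw [Derivation.commutator_apply]
    by_cases h1 : q = r <;> by_cases h2 : s = p <;> by_cases h3 : t = s <;> by_cases h4 : t = q <;>
      simp_all [pol_X, eq_comm]
  have := congrArg (fun D : Derivation ℂ (MvPolynomial (P × ι) ℂ) (MvPolynomial (P × ι) ℂ) => D F) key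
  simp only [Derivation.commutator_apply] at this
  rw [this]
  split_ifs <;> simp

theorem pol_self_monomial (p : P) (s : P × ι →₀ ℕ) (c : ℂ) :
    pol p p (monomial s c) =
      ((s.sum fun r n => if r.1 = p then n else 0 : ℕ) : ℂ) • monomial s c := by
  classical
  rw [pol, mkDerivation_monomial, Finsupp.sum, Finsupp.sum, Nat.cast_sum, Finset.sum_smul,
    Finset.smul_sum]
  refine Finset.sum_congr rfl fun r hr => ?_
  by_cases h : r.1 = p
  · have hr' : (p, r.2) = r := by rw [← h]
    simp only [h, if_true, hr', smul_eq_mul]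
    rw [X, monomial_mul, smul_monomial, smul_monomial]
    have : s - Finsupp.single r 1 + Finsupp.single r 1 = s := by
      apply tsub_add_cancel_of_le
      rw [Finsupp.single_le_iff]
      exact Nat.one_le_iff_ne_zero.2 (Finsupp.mem_support_iff.1 hr)
    rw [this]
    simp [mul_comm]
  · simp [h]

theorem coeff_pol_self (p : P) (F : MvPolynomial (P × ι) ℂ) (m : P × ι →₀ ℕ) :
    coeff m (pol p p F) = ((m.sum fun r n => if r.1 = p then n else 0 : ℕ) : ℂ) * coeff m F := by
  classical
  induction F using MvPolynomial.induction_on' with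
  | monomial s c =>
    rw [pol_self_monomial, coeff_smul, coeff_monomial]
    split_ifs with h
    · subst h; simp
    · simp
  | add F G hF hG => rw [map_add, coeff_add, coeff_add, hF, hG, mul_add]

/-- `F` is homogeneous of degree `d` in the vector variable `p`. -/
def Deg (p : P) (d : ℤ) (F : MvPolynomial (P × ι) ℂ) : Prop := pol p p F = (d : ℂ) • F

theorem Deg.eq_zero_of_neg {p : P} {d : ℤ} {F : MvPolynomial (P × ι) ℂ} (h : Deg p d F)
    (hd : d < 0) : F = 0 := by
  ext m
  have h1 := coeff_pol_self p F m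
  rw [h, coeff_smul, smul_eq_mul] at h1
  by_contra h0
  have h2 := mul_right_cancel₀ h0 h1
  have h3 : d = ((m.sum fun r n => if r.1 = p then n else 0 : ℕ) : ℤ) := by exact_mod_cast h2
  omega

theorem Deg.not_mem_vars {p : P} {F : MvPolynomial (P × ι) ℂ} (h : Deg p 0 F) (k : ι) :
    (p, k) ∉ F.vars := by
  classical
  intro hk
  obtain ⟨m, hm, hkm⟩ := (mem_vars_iff_mem_support _).1 hk
  have h1 := coeff_pol_self p F m
  rw [h, coeff_smul] at h1
  simp only [Int.cast_zero, smul_eq_mul, zero_mul] at h1
  rcases mul_eq_zero.1 h1.symm with h2 | h2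
  · have h3 : (m.sum fun r n => if r.1 = p then n else 0 : ℕ) = 0 := by exact_mod_cast h2
    rw [Finsupp.sum, Finset.sum_eq_zero_iff] at h3
    have := h3 _ hkm
    simp only [if_true] at this
    exact Finsupp.mem_support_iff.1 hkm this
  · exact mem_support_iff.1 hm h2

theorem pol_eq_zero_of_not_mem_vars {p q : P} {F : MvPolynomial (P × ι) ℂ}
    (h : ∀ k, (q, k) ∉ F.vars) : pol p q F = 0 := by
  apply derivation_eq_zero_of_forall_mem_vars
  rintro ⟨r, k⟩ hr
  rw [pol_X, if_neg]
  rintro rfl
  exact h k hr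

theorem deg_zero_of_not_mem_vars {p : P} {F : MvPolynomial (P × ι) ℂ}
    (h : ∀ k, (p, k) ∉ F.vars) : Deg p 0 F := by
  simp [Deg, pol_eq_zero_of_not_mem_vars h]

theorem Deg.pol {r p q : P} {d : ℤ} {F : MvPolynomial (P × ι) ℂ} (h : Deg r d F) :
    Deg r (d + (if r = p then 1 else 0) - (if r = q then 1 else 0)) (P181.pol p q F) := by
  have h1 := pol_comm r r p q F
  unfold Deg at h ⊢
  rw [h, Derivation.map_smul, sub_eq_iff_eq_add] at h1
  rw [h1]
  by_cases h2 : r = p <;> by_cases h3 : r = q
  · subst h2; subst h3; simp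
  · subst h2; simp [h3, Ne.symm h3, add_smul, add_comm]
  · subst h3; simp [h2, sub_smul]; abel
  · simp [h2, h3, Ne.symm h3]

theorem Deg.mul {p : P} {d e : ℤ} {F G : MvPolynomial (P × ι) ℂ} (hF : Deg p d F)
    (hG : Deg p e G) : Deg p (d + e) (F * G) := by
  unfold Deg at *
  rw [Derivation.leibniz, hF, hG]
  simp only [smul_eq_mul, Algebra.mul_smul_comm, Int.cast_add, add_smul, mul_comm G F]
  abel

theorem Deg.one (p : P) : Deg p 0 (1 : MvPolynomial (P × ι) ℂ) := by simp [Deg]

theorem Deg.zero (p : P) (d : ℤ) : Deg p d (0 : MvPolynomial (P × ι) ℂ) := by simp [Deg]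

theorem Deg.add {p : P} {d : ℤ} {F G : MvPolynomial (P × ι) ℂ} (hF : Deg p d F)
    (hG : Deg p d G) : Deg p d (F + G) := by
  unfold Deg at *
  rw [map_add, hF, hG, smul_add]

theorem Deg.smul {p : P} {d : ℤ} {F : MvPolynomial (P × ι) ℂ} (hF : Deg p d F) (c : ℂ) :
    Deg p d (c • F) := by
  unfold Deg at *
  rw [Derivation.map_smul, hF, smul_comm]

theorem Deg.sum {α : Type*} {p : P} {d : ℤ} (s : Finset α) {F : α → MvPolynomial (P × ι) ℂ}
    (hF : ∀ a ∈ s, Deg p d (F a)) : Deg p d (∑ a ∈ s, F a) := by
  classical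
  induction s using Finset.induction_on with
  | empty => simpa using Deg.zero p d
  | insert a s ha ih =>
    rw [Finset.sum_insert ha]
    exact (hF a (Finset.mem_insert_self _ _)).add
      (ih fun b hb => hF b (Finset.mem_insert_of_mem hb))

theorem Deg.prod {α : Type*} {p : P} (s : Finset α) {d : α → ℤ}
    {F : α → MvPolynomial (P × ι) ℂ}
    (hF : ∀ a ∈ s, Deg p (d a) (F a)) : Deg p (∑ a ∈ s, d a) (∏ a ∈ s, F a) := by
  classical
  induction s using Finset.induction_on with
  | empty => simpa using Deg.one p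
  | insert a s ha ih =>
    rw [Finset.sum_insert ha, Finset.prod_insert ha]
    exact (hF a (Finset.mem_insert_self _ _)).mul
      (ih fun b hb => hF b (Finset.mem_insert_of_mem hb))

/-- The polarization operator as a linear endomorphism. -/
noncomputable def polE (p q : P) : Module.End ℂ (MvPolynomial (P × ι) ℂ) :=
  (pol p q : Derivation ℂ (MvPolynomial (P × ι) ℂ) (MvPolynomial (P × ι) ℂ)).toLinearMap

theorem polE_apply (p q : P) (F : MvPolynomial (P × ι) ℂ) : polE p q F = pol p q F := rfl

theorem Deg.polE_pow {r p q : P} {d : ℤ} {F : MvPolynomial (P × ι) ℂ} (h : Deg r d F) (n : ℕ) :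
    Deg r (d + n * ((if r = p then 1 else 0) - (if r = q then 1 else 0))) ((polE p q ^ n) F) := by
  induction n with
  | zero => simpa using h
  | succ n ih =>
    rw [pow_succ', Module.End.mul_apply, polE_apply]
    convert ih.pol (p := p) (q := q) using 1
    push_cast; ring

/-- The sl2 lemma: `(pol p q) ^ N` is injective on bidegree `(k, d)` when `k + N ≤ d`. -/
theorem polE_pow_inj {p q : P} (hpq : p ≠ q) {k d N : ℕ} {F : MvPolynomial (P × ι) ℂ}
    (hp : Deg p k F) (hq : Deg q d F) (hN : k + N ≤ d) (h : (polE p q ^ N) F = 0) : F = 0 := by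
  refine sl2_inj (polE p q) (polE q p) (polE p p - polE q q) ?_ ?_ ?_ (k + 1) F (d - k) N ?_ ?_
    (by omega) h
  · intro v
    simpa [polE_apply] using pol_comm p q q p v
  · intro v
    have h1 := pol_comm p p p q v
    have h2 := pol_comm q q p q v
    simp only [if_true, hpq.symm, if_false, sub_zero, zero_sub] at h1 h2
    simp only [LinearMap.sub_apply, polE_apply, map_sub, two_smul]
    linear_combination h1 - h2
  · intro v
    have h1 := pol_comm p p q p v
    have h2 := pol_comm q q q p v
    simp only [if_true, hpq, if_false, sub_zero, zero_sub] at h1 h2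
    simp only [LinearMap.sub_apply, polE_apply, map_sub, two_smul]
    linear_combination h1 - h2
  · unfold Deg at hp hq
    simp only [LinearMap.sub_apply, polE_apply]
    rw [hp, hq, ← sub_smul, Nat.cast_sub (by omega)]
    congr 1; push_cast; ring
  · have := hp.polE_pow (p := q) (q := p) (k + 1)
    refine this.eq_zero_of_neg ?_
    simp [hpq]

end pol

end Vale.Agent.P181
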