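import Vale.Agent.P181.Act

/-! The inductive step for injectivity of the full polarization operator. -/

namespace Vale.Agent.P181

open MvPolynomial

theorem lin_coeff_eq_zero {Q M : Type*} [CommRing Q] [Algebra ℂ Q] [AddCommGroup M] [Module ℂ M]
    (Λ : Q →ₗ[ℂ] M) (π : Polynomial Q)
    (h : ∀ t : ℂ, Λ (π.eval (algebraMap ℂ Q t)) = 0) (n : ℕ) : Λ (π.coeff n) = 0 := by
  rw [← Module.forall_dual_apply_eq_zero_iff ℂ]
  intro f
  let g : Polynomial ℂ :=
    ∑ m ∈ Finset.range (π.natDegree + 1), Polynomial.monomial m (f (Λ (π.coeff m)))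
  have hg : g = 0 := by
    apply Polynomial.funext
    intro t
    have := congrArg f (h t)
    rw [Polynomial.eval_eq_sum_range, map_sum, map_sum, map_zero] at this
    rw [Polynomial.eval_zero, ← this]
    simp only [g, Polynomial.eval_finsetSum, Polynomial.eval_monomial]
    refine Finset.sum_congr rfl fun m _ => ?_
    rw [← map_pow, mul_comm (π.coeff m), ← Algebra.smul_def, map_smul, map_smul, smul_eq_mul,
      mul_comm]
  by_cases hn : n < π.natDegree + 1
  · have := congrArg (fun p => Polynomial.coeff p n) hg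
    simpa [g, Polynomial.coeff_monomial, hn] using this
  · rw [Polynomial.coeff_eq_zero_of_natDegree_lt (by omega), map_zero, map_zero]

theorem lin_term_eq_zero {Q M Z : Type*} [DecidableEq Z] [CommRing Q] [Algebra ℂ Q]
    [AddCommGroup M] [Module ℂ M]
    (Λ : Q →ₗ[ℂ] M) (S : Finset Z) (α β : Z → Q)
    (h : ∀ t : ℂ, Λ (∏ z ∈ S, (α z + t • β z)) = 0) :
    Λ (∑ z ∈ S, (∏ w ∈ S.erase z, α w) * β z) = 0 := by
  have := lin_coeff_eq_zero Λ
    (∏ z ∈ S, (Polynomial.C (α z) + Polynomial.C (β z) * Polynomial.X)) ?_ 1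
  · convert this using 2
    have h1 : ∀ p : Polynomial Q, p.coeff 1 = (Polynomial.derivative p).eval 0 := by
      intro p
      rw [← Polynomial.coeff_zero_eq_eval_zero, Polynomial.coeff_derivative]
      simp
    rw [h1, Polynomial.derivative_prod_finset, Polynomial.eval_finsetSum]
    refine Finset.sum_congr rfl fun z _ => ?_
    simp [Polynomial.eval_prod]
  · intro t
    rw [← h t, Polynomial.eval_prod]
    congr 1
    refine Finset.prod_congr rfl fun z _ => ?_
    rw [Polynomial.eval_add, Polynomial.eval_mul, Polynomial.eval_C, Polynomial.eval_C,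
      Polynomial.eval_X, Algebra.smul_def, mul_comm]

theorem exists_split {U : Type*} [DecidableEq U] (J : Finset U) (hJ : 0 < J.card) (t : ℂ) :
    ∃ c : U → ℂ, ∀ (Q : Type _) [CommRing Q] [IsDomain Q] [Algebra ℂ Q] [FaithfulSMul ℂ Q]
      (α β : Q), ∏ y ∈ J, (α + c y • β) = α ^ J.card + t • β ^ J.card := by
  obtain ⟨s, hs⟩ := IsAlgClosed.exists_pow_nat_eq (-t) hJ
  have hζ := Complex.isPrimitiveRoot_exp J.card hJ.ne'
  set ζ := Complex.exp (2 * Real.pi * Complex.I / J.card)
  refine ⟨fun y => if h : y ∈ J then -(ζ ^ ((J.equivFin ⟨y, h⟩ : Fin J.card) : ℕ) * s) else 0, ?_⟩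
  intro Q _ _ _ _ α β
  have h1 := X_pow_sub_C_eq_prod
    (hζ.map_of_injective (f := algebraMap ℂ Q) (FaithfulSMul.algebraMap_injective ℂ Q)) hJ
    (α := s • β) rfl
  have h2 := congrArg (Polynomial.eval α) h1
  simp only [Polynomial.eval_sub, Polynomial.eval_pow, Polynomial.eval_X, Polynomial.eval_C,
    Polynomial.eval_prod] at h2
  rw [smul_pow, hs, neg_smul, sub_neg_eq_add] at h2
  rw [h2, ← Finset.prod_coe_sort J, Finset.prod_range]
  refine Fintype.prod_equiv J.equivFin _ _ fun y => ?_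
  simp only [y.2, dif_pos, Subtype.coe_eta]
  rw [← map_pow, ← Algebra.smul_def, smul_smul, neg_smul, sub_eq_add_neg]

section

variable {U Z ι : Type*} [DecidableEq U] [DecidableEq Z]

/-- each sink in `Y` takes one from each source in `S` -/
noncomputable def Th (Y : Finset U) (S : Finset Z) : MvPolynomial (U × Z) ℂ :=
  ∏ y ∈ Y, ∏ z ∈ S, X (y, z)

theorem shift_Th_inl (u : U) (Y : Finset U) (S : Finset Z) :
    Shift ι (Sum.inl u) (if u ∈ Y then S.card else 0) (Th Y S) := by
  refine (Shift.prod Y fun y _ => Shift.prod S fun z _ => shift_X_inl u y z).of_eq ?_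
  by_cases h : u ∈ Y <;> simp [h]

theorem shift_Th_inr (w : Z) (Y : Finset U) (S : Finset Z) :
    Shift ι (Sum.inr w) (if w ∈ S then -Y.card else 0) (Th Y S) := by
  refine (Shift.prod Y fun y _ => Shift.prod S fun z _ => shift_X_inr w y z).of_eq ?_
  by_cases h : w ∈ S <;> simp [h]

theorem shift_col_inl (u x : U) (N : ℕ) (S : Finset Z) :
    Shift ι (Sum.inl u) (if u = x then N * S.card else 0)
      (∏ z ∈ S, X (x, z) ^ N : MvPolynomial (U × Z) ℂ) := by
  refine (Shift.prod S fun z _ => (shift_X_inl u x z).pow N).of_eq ?_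
  by_cases h : u = x <;> simp [h, mul_comm]

theorem shift_col_inr (w : Z) (x : U) (N : ℕ) (S : Finset Z) :
    Shift ι (Sum.inr w) (if w ∈ S then -N else 0)
      (∏ z ∈ S, X (x, z) ^ N : MvPolynomial (U × Z) ℂ) := by
  refine (Shift.prod S fun z _ => (shift_X_inr w x z).pow N).of_eq ?_
  by_cases h : w ∈ S <;> simp [h]

omit [DecidableEq U] in
theorem rename_swap_prod (S : Finset Z) {z z' : Z} (hz : z ∈ S) (hz' : z' ∈ S)
    (g : Z → MvPolynomial (U × Z) ℂ)
    (hg : ∀ w, rename (Prod.map id (Equiv.swap z z')) (g w) = g (Equiv.swap z z' w)) :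
    rename (Prod.map id (Equiv.swap z z')) (∏ w ∈ S, g w) = ∏ w ∈ S, g w := by
  rw [map_prod]
  simp_rw [hg]
  exact prod_swap S hz hz' g

omit [DecidableEq U] in
theorem rename_swap_Th (Y : Finset U) (S : Finset Z) {z z' : Z} (hz : z ∈ S) (hz' : z' ∈ S) :
    rename (Prod.map id (Equiv.swap z z')) (Th Y S) = Th Y S := by
  unfold Th
  rw [Finset.prod_comm]
  exact rename_swap_prod S hz hz' _ (by intro w; simp)

omit [DecidableEq U] in
theorem Th_insert (Y : Finset U) {S : Finset Z} {z : Z} (hz : z ∉ S) :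
    Th Y (insert z S) = (∏ y ∈ Y, X (y, z)) * Th Y S := by
  unfold Th
  rw [← Finset.prod_mul_distrib]
  exact Finset.prod_congr rfl fun y _ => Finset.prod_insert hz

omit [DecidableEq Z] in
theorem Th_sdiff {Y J : Finset U} (h : J ⊆ Y) (S : Finset Z) :
    Th Y S = Th (Y \ J) S * Th J S := by
  unfold Th
  rw [Finset.prod_sdiff h]

variable (U Z ι) in
/-- injectivity of the full polarization on symmetric polynomials: `a` sources of degree `b` -/
def Good (a b : ℕ) : Prop :=
  ∀ (S : Finset Z) (Y : Finset U), S.card = a → Y.card = b → ∀ F : PP U Z ι,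
    (∀ z ∈ S, Deg (Sum.inr z) b F) → (∀ y ∈ Y, Deg (Sum.inl y) 0 F) → SymIn S F →
    act (Th Y S) F = 0 → F = 0

/-- The base fact: binary forms split into linear factors. -/
theorem base_fact {S : Finset Z} {Y J : Finset U} (hJ : J ⊆ Y) (hj : 0 < J.card) {x l : U}
    {F : PP U Z ι} (hS : ∀ z ∈ S, Deg (Sum.inr z) Y.card F)
    (hY : ∀ y ∈ Y, Deg (Sum.inl y) 0 F) (hsym : SymIn S F) (h : act (Th Y S) F = 0)
    {z₀ : Z} (hz₀ : z₀ ∈ S) :
    act (Th (Y \ J) S * ((∏ w ∈ S.erase z₀, X (x, w) ^ J.card) * X (l, z₀) ^ J.card)) F = 0 := by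
  let Λ : MvPolynomial (U × Z) ℂ →ₗ[ℂ] PP U Z ι :=
    (LinearMap.applyₗ F) ∘ₗ (act (U := U) (Z := Z) (ι := ι)).toLinearMap ∘ₗ
      LinearMap.mulLeft ℂ (Th (Y \ J) S)
  have hΛ : ∀ q, Λ q = act (Th (Y \ J) S * q) F := fun q => rfl
  have h1 := lin_term_eq_zero Λ S (fun z => X (x, z) ^ J.card) (fun z => X (l, z) ^ J.card) (by
    intro t
    obtain ⟨c, hc⟩ := exists_split J hj t
    have h2 := congrArg (subP J x l c) h
    rw [subP_act, subP_eq_self J x l c (fun y hy => hY y (hJ hy)), map_zero, Th_sdiff hJ,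
      map_mul] at h2
    rw [hΛ, ← h2]
    congr 3
    · unfold Th
      rw [map_prod]
      refine Finset.prod_congr rfl fun y hy => ?_
      rw [map_prod]
      refine Finset.prod_congr rfl fun z _ => ?_
      simp [subQ, (Finset.mem_sdiff.1 hy).2]
    · unfold Th
      rw [Finset.prod_comm, map_prod]
      refine Finset.prod_congr rfl fun z _ => ?_
      rw [← hc, map_prod]
      refine Finset.prod_congr rfl fun y hy => ?_
      simp [subQ, hy])
  rw [map_sum] at h1
  have hdeg : ∀ z ∈ S, ∀ w ∈ S, Deg (Sum.inr w) 0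
      (Λ ((∏ w ∈ S.erase z, X (x, w) ^ J.card) * X (l, z) ^ J.card)) := by
    intro z hz w hw
    rw [hΛ]
    refine ((shift_Th_inr w _ S).mul ((shift_col_inr w x J.card _).mul
      ((shift_X_inr w l z).pow J.card))).apply (hS w hw) ?_
    have := Finset.card_sdiff_add_card_eq_card hJ
    by_cases hwz : w = z
    · simp [hwz, hz]; omega
    · simp [hwz, hw]; omega
  have h3 : ∀ z ∈ S, Λ ((∏ w ∈ S.erase z, X (x, w) ^ J.card) * X (l, z) ^ J.card) =
      Λ ((∏ w ∈ S.erase z₀, X (x, w) ^ J.card) * X (l, z₀) ^ J.card) := by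
    intro z hz
    rw [← swapZ_eq_self z z₀ (hdeg z hz z hz) (hdeg z hz z₀ hz₀), hΛ, hΛ, swapZ_act,
      hsym z hz z₀ hz₀, map_mul, rename_swap_Th _ S hz hz₀]
    congr 3
    rw [map_mul, map_prod]
    congr 1
    · simp only [map_pow, rename_X, Prod.map_apply, id]
      refine Finset.prod_equiv (Equiv.swap z z₀) ?_ (fun _ _ => rfl)
      intro w
      by_cases h1 : w = z
      · simp [h1]
      · by_cases h2 : w = z₀
        · subst h2; simp [h1, hz, hz₀, Ne.symm h1]
        · rw [Equiv.swap_apply_of_ne_of_ne h1 h2]; simp [h1, h2]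
    · simp
  rw [Finset.sum_congr rfl h3, Finset.sum_const, ← Nat.cast_smul_eq_nsmul ℂ, smul_eq_zero] at h1
  rcases h1 with h1 | h1
  · exact absurd h1 (Nat.cast_ne_zero.2 (Finset.card_pos.2 ⟨z₀, hz₀⟩).ne')
  · exact h1

theorem good_zero (b : ℕ) : Good U Z ι 0 b := by
  intro S Y hS _ F _ _ _ h
  rw [Finset.card_eq_zero] at hS
  subst hS
  simpa [Th] using h

theorem good_one (b : ℕ) : Good U Z ι 1 b := by
  intro S Y hS hY F hd h0 _ h
  obtain ⟨z, rfl⟩ := Finset.card_eq_one.1 hS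
  refine row_inj z 0 Y b F (by simpa using h0) (hd z (by simp)) (by omega) ?_
  simpa [Th] using h

theorem good_step [Infinite U] {a k b : ℕ} (ha : 0 < a) (ih : Good U Z ι a k) (hb : b = k + a)
    (hb' : a * a ≤ b) : Good U Z ι (a + 1) b := by
  intro S Y hS hY F hd h0 hsym h
  obtain ⟨z₀, hz₀⟩ : S.Nonempty := Finset.card_pos.1 (by omega)
  obtain ⟨J, hJ, hj⟩ := Finset.exists_subset_card_eq (s := Y) (n := a) (by omega)
  obtain ⟨x, hxY, hx⟩ := exists_fresh Y F
  obtain ⟨l, hl, hl0⟩ := exists_fresh (insert x Y) F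
  rw [Finset.mem_insert, not_or] at hl
  have h1 := base_fact hJ (by omega) (x := x) (l := l) (by rwa [hY]) h0 hsym h hz₀
  set S' := S.erase z₀ with hS'
  have hS'c : S'.card = a := by rw [hS', Finset.card_erase_of_mem hz₀]; omega
  have hz₀' : z₀ ∉ S' := Finset.notMem_erase _ _
  have hSS : S = insert z₀ S' := (Finset.insert_erase hz₀).symm
  have hsub : S' ⊆ S := Finset.erase_subset _ _
  have hYJ : (Y \ J).card = k := by
    have := Finset.card_sdiff_add_card_eq_card hJ
    omega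
  have hxYJ : x ∉ Y \ J := fun hh => hxY (Finset.mem_sdiff.1 hh).1
  have hlYJ : l ∉ Y \ J := fun hh => hl.2 (Finset.mem_sdiff.1 hh).1
  rw [hj] at h1
  have e : Th (Y \ J) S * ((∏ w ∈ S', X (x, w) ^ a) * X (l, z₀) ^ a) =
      X (l, z₀) ^ a * ((∏ y ∈ Y \ J, X (y, z₀)) * (Th (Y \ J) S' * ∏ w ∈ S', X (x, w) ^ a)) := by
    rw [hSS, Th_insert _ hz₀']
    ring
  rw [e, act_mul_apply, act_mul_apply, act_mul_apply] at h1
  set F₁ := act (∏ w ∈ S', X (x, w) ^ a : MvPolynomial (U × Z) ℂ) F with hF₁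
  set F₂ := act (Th (Y \ J) S') F₁ with hF₂
  set F₃ := act (∏ y ∈ Y \ J, X (y, z₀) : MvPolynomial (U × Z) ℂ) F₂ with hF₃
  have d1 : Deg (Sum.inr z₀) b F₁ := (shift_col_inr z₀ x a S').apply (hd z₀ hz₀) (by simp [hz₀'])
  have d2 : Deg (Sum.inr z₀) b F₂ := (shift_Th_inr z₀ _ S').apply d1 (by simp [hz₀'])
  have y1 : ∀ y ∈ Y \ J, Deg (Sum.inl y) 0 F₁ := by
    intro y hy
    have : y ≠ x := by rintro rfl; exact hxYJ hy
    exact (shift_col_inl y x a S').apply (h0 y (Finset.mem_sdiff.1 hy).1) (by simp [this])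
  have h3 : F₃ = 0 := by
    refine act_X_pow_inj (k := 0) (d := a) ?_ ?_ (by omega) h1
    · have l1 : Deg (Sum.inl l) 0 F₁ := (shift_col_inl l x a S').apply hl0 (by simp [hl.1])
      have l2 : Deg (Sum.inl l) 0 F₂ := (shift_Th_inl l _ S').apply l1 (by simp [hlYJ])
      refine (Shift.prod (Y \ J) fun y _ => shift_X_inl l y z₀).apply l2 ?_
      simp [hlYJ]
    · refine (Shift.prod (Y \ J) fun y _ => shift_X_inr z₀ y z₀).apply d2 ?_
      simp [hYJ, hb]
  have h2 : F₂ = 0 := by
    refine row_inj z₀ a (Y \ J) b F₂ ?_ d2 (by omega) h3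
    intro y hy
    exact (shift_Th_inl y _ S').apply (y1 y hy) (by simp [hy, hS'c])
  have h1' : F₁ = 0 := by
    refine ih S' (Y \ J) hS'c hYJ F₁ ?_ y1 ?_ h2
    · intro z hz
      exact (shift_col_inr z x a S').apply (hd z (hsub hz)) (by simp [hz, hb])
    · refine (hsym.mono hsub).act fun z hz z' hz' => ?_
      exact rename_swap_prod S' hz hz' _ (by intro w; simp)
  exact col_inj x a b S' 0 F (by simpa using hx) (fun z hz => hd z (hsub hz))
    (by rw [hS'c]; omega) h1'

theorem good_of_sq [Infinite U] (a : ℕ) : ∀ b, (a - 1) ^ 2 ≤ b → Good U Z ι a b := by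
  induction a with
  | zero => intro b _; exact good_zero b
  | succ a ih =>
    intro b hb
    rcases Nat.eq_zero_or_pos a with rfl | ha
    · exact good_one b
    · simp only [Nat.add_sub_cancel] at hb
      obtain ⟨c, rfl⟩ : ∃ c, a = c + 1 := ⟨a - 1, by omega⟩
      have hab : c + 1 ≤ b := by nlinarith
      refine good_step ha (ih (b - (c + 1)) ?_) (by omega) (by nlinarith)
      simp only [Nat.add_sub_cancel]
      have : c ^ 2 + (c + 1) ≤ b := by nlinarith
      omega

end

end Vale.Agent.P181
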